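import Vale.Agent.P290.H227.Sym

/-!
Legendre's theorem on `a x^2 + b y^2 = z^2`, by descent, without a condition at `2`.
-/

namespace Vale.Agent.P290.H227

open scoped NumberTheorySymbols

/-- nontrivial integral solution of `a x^2 + b y^2 = z^2` -/
def Sol (a b : ℤ) : Prop := ∃ x y z : ℤ, (x ≠ 0 ∨ y ≠ 0 ∨ z ≠ 0) ∧ a * x ^ 2 + b * y ^ 2 = z ^ 2

theorem Sol.symm {a b : ℤ} (h : Sol a b) : Sol b a := by
  obtain ⟨x, y, z, h1, h2⟩ := h
  exact ⟨y, x, z, by tauto, by linarith⟩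

theorem Sol.of_sq {a b c : ℤ} (hc : c ≠ 0) (h : Sol a b) : Sol a (b * c ^ 2) := by
  obtain ⟨x, y, z, h1, h2⟩ := h
  refine ⟨c * x, y, c * z, ?_, ?_⟩
  · rcases h1 with h1 | h1 | h1
    · exact Or.inl (mul_ne_zero hc h1)
    · exact Or.inr (Or.inl h1)
    · exact Or.inr (Or.inr (mul_ne_zero hc h1))
  · have : c ^ 2 * (a * x ^ 2 + b * y ^ 2) = c ^ 2 * z ^ 2 := by rw [h2]
    linarith

theorem Sol.step {a b b' t : ℤ} (hb' : b' ≠ 0) (ht : t ^ 2 - a = b * b') (h : Sol a b') :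
    Sol a b := by
  obtain ⟨x, y, z, h1, h2⟩ := h
  by_cases hy : y = 0
  · subst hy
    exact ⟨x, 0, z, h1, by linarith⟩
  · refine ⟨x * t + z, b' * y, z * t + a * x, Or.inr (Or.inl (mul_ne_zero hb' hy)), ?_⟩
    have e1 : (z * t + a * x) ^ 2 - a * (x * t + z) ^ 2 = (z ^ 2 - a * x ^ 2) * (t ^ 2 - a) := by
      ring
    have e2 : z ^ 2 - a * x ^ 2 = b' * y ^ 2 := by linarith
    rw [e2, ht] at e1
    linarith

theorem Sol.of_square {t b : ℤ} : Sol (t ^ 2) b := ⟨1, 0, t, Or.inl one_ne_zero, by ring⟩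

/-- the norm identity for the symbol -/
theorem hs_norm {p : ℕ} (hp : p.Prime) {a t : ℤ} (hsf : Squarefree a)
    (h0 : t ^ 2 - a ≠ 0) : hs p a (t ^ 2 - a) = 1 := by
  have ha : a ≠ 0 := hsf.ne_zero
  have hpp := Nat.prime_iff_prime_int.mp hp
  by_cases hpa : (p : ℤ) ∣ a
  · obtain ⟨c, hc⟩ := hpa
    have hpc : ¬ (p : ℤ) ∣ c := by
      rintro ⟨d, hd⟩
      have := hsf p ⟨d, by rw [hc, hd]; ring⟩
      exact hpp.not_unit this
    have e1 := ex_of_sq_not_dvd hp (a := a) (c := c) (by rw [hc]; ring) hpc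
    by_cases hpt : (p : ℤ) ∣ t
    · obtain ⟨s, hs'⟩ := hpt
      have hd : ¬ (p : ℤ) ∣ (p * s ^ 2 - c) := by
        intro h
        exact hpc (by simpa using (dvd_sub (Dvd.intro _ rfl : (p : ℤ) ∣ p * s ^ 2) h))
      have e2 := ex_of_sq_not_dvd hp (a := t ^ 2 - a) (c := p * s ^ 2 - c)
        (by rw [hs', hc]; ring) hd
      unfold hs
      rw [e1.1, e1.2, e2.1, e2.2]
      rw [jac_congr (p := p) (a := p * s ^ 2 - c) (b := (-1) * c) ⟨s ^ 2, by ring⟩,
        jacobiSym.mul_left]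
      have h1 := jac_neg_one_sq hp
      have h2 := jac_sq hp hpc
      calc J(-1 | p) ^ (1 * 1) * J(c | p) ^ 1 * (J(-1 | p) * J(c | p)) ^ 1
          = J(-1 | p) ^ 2 * J(c | p) ^ 2 := by ring
        _ = 1 := by rw [h1, h2, one_mul]
    · have hd : ¬ (p : ℤ) ∣ (t ^ 2 - a) := by
        intro h
        have : (p : ℤ) ∣ t ^ 2 := by
          have := dvd_add h (⟨c, hc⟩ : (p : ℤ) ∣ a)
          simpa using this
        exact hpt (hpp.dvd_of_dvd_pow this)
      have e2 := ex_of_not_dvd hp hd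
      unfold hs
      rw [e1.1, e2.1, e2.2]
      rw [jac_congr (p := p) (a := t ^ 2 - a) (b := t ^ 2) ⟨-c, by rw [hc]; ring⟩,
        jacobiSym.pow_left, jac_sq hp hpt]
      simp
  · rw [hs_of_not_dvd_left hp hpa]
    by_cases hd : (p : ℤ) ∣ t ^ 2 - a
    · have hpt : ¬ (p : ℤ) ∣ t := by
        intro h
        apply hpa
        have := dvd_sub (dvd_pow h two_ne_zero) hd
        simpa using this
      rw [jac_congr (p := p) (a := a) (b := t ^ 2) (by
        obtain ⟨k, hk⟩ := hd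
        exact ⟨-k, by linarith⟩), jacobiSym.pow_left, jac_sq hp hpt, one_pow]
    · rw [(ex_of_not_dvd hp hd).1, pow_zero]

/-- square modulo a prime from the symbol -/
theorem exists_sq_mod {p : ℕ} (hp : p.Prime) {a : ℤ} (h : p ≠ 2 → ¬ (p : ℤ) ∣ a → J(a | p) = 1) :
    ∃ t : ℤ, (p : ℤ) ∣ t ^ 2 - a := by
  by_cases h2 : p = 2
  · subst h2
    refine ⟨a, ?_⟩
    have : a ^ 2 - a = a * (a - 1) := by ring
    rw [this]
    have := Int.even_mul_pred_self a
    exact even_iff_two_dvd.mp this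
  by_cases hd : (p : ℤ) ∣ a
  · exact ⟨0, by simpa using hd⟩
  have hF : Fact p.Prime := ⟨hp⟩
  have h1 : legendreSym p a = 1 := by
    rw [jacobiSym.legendreSym.to_jacobiSym]; exact h h2 hd
  have h3 : ((a : ℤ) : ZMod p) ≠ 0 := by
    rwa [Ne, ZMod.intCast_zmod_eq_zero_iff_dvd]
  obtain ⟨r, hr⟩ := (legendreSym.eq_one_iff p h3).mp h1
  refine ⟨(r.val : ℤ), ?_⟩
  rw [← ZMod.intCast_zmod_eq_zero_iff_dvd]
  push_cast
  rw [ZMod.natCast_zmod_val, hr]
  ring

/-- square modulo a squarefree number -/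
theorem exists_sq_mod_squarefree {a : ℤ} : ∀ n : ℕ, Squarefree n →
    (∀ p, p.Prime → p ∣ n → ∃ t : ℤ, (p : ℤ) ∣ t ^ 2 - a) → ∃ t : ℤ, (n : ℤ) ∣ t ^ 2 - a := by
  intro n
  induction n using Nat.strong_induction_on with
  | _ n ih =>
    intro hn h
    by_cases h1 : n = 1
    · subst h1; exact ⟨0, by simp⟩
    · set p := n.minFac with hpdef
      have hp : p.Prime := Nat.minFac_prime h1
      obtain ⟨m, hm⟩ := Nat.minFac_dvd n
      rw [← hpdef] at hm
      have hn0 : n ≠ 0 := hn.ne_zero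
      have hm0 : 0 < m := by
        rcases Nat.eq_zero_or_pos m with h | h
        · rw [h, mul_zero] at hm; exact absurd hm hn0
        · exact h
      have hmn : m < n := by
        rw [hm]
        have := hp.two_le
        nlinarith
      have hcop : Nat.Coprime p m := by
        have : Squarefree (p * m) := hm ▸ hn
        exact (Nat.squarefree_mul_iff.mp this).1
      have hmsf : Squarefree m := hn.squarefree_of_dvd ⟨p, by rw [mul_comm]; exact hm⟩
      obtain ⟨t1, ht1⟩ := ih m hmn hmsf (fun q hq hqm =>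
        h q hq (hqm.trans ⟨p, by rw [mul_comm]; exact hm⟩))
      obtain ⟨t2, ht2⟩ := h p hp ⟨m, hm⟩
      have hc : IsCoprime (p : ℤ) (m : ℤ) := Nat.isCoprime_iff_coprime.mpr hcop
      obtain ⟨u, v, huv⟩ := hc
      refine ⟨t1 * (u * p) + t2 * (v * m), ?_⟩
      have hm' : (n : ℤ) = p * m := by exact_mod_cast hm
      rw [hm']
      apply IsCoprime.mul_dvd ⟨u, v, huv⟩
      · have e : (t1 * (u * p) + t2 * (v * m)) ^ 2 - a
            = (t2 ^ 2 - a) + p * (u * (t1 - t2) * (2 * t2 + u * p * (t1 - t2))) := by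
          have : v * m = 1 - u * p := by linarith
          rw [this]; ring
        rw [e]
        exact dvd_add ht2 (Dvd.intro _ rfl)
      · have e : (t1 * (u * p) + t2 * (v * m)) ^ 2 - a
            = (t1 ^ 2 - a) + m * (v * (t2 - t1) * (2 * t1 + v * m * (t2 - t1))) := by
          have : u * p = 1 - v * m := by linarith
          rw [this]; ring
        rw [e]
        exact dvd_add ht1 (Dvd.intro _ rfl)

/-- small representative -/
theorem exists_small {n : ℕ} (hn : 0 < n) {a t : ℤ} (h : (n : ℤ) ∣ t ^ 2 - a) :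
    ∃ s : ℤ, (n : ℤ) ∣ s ^ 2 - a ∧ 2 * |s| ≤ n := by
  refine ⟨Int.bmod t n, ?_, ?_⟩
  · have h1 : (n : ℤ) ∣ t - Int.bmod t n := Int.dvd_self_sub_bmod
    have e : Int.bmod t n ^ 2 - a = (t ^ 2 - a) - (t - Int.bmod t n) * (t + Int.bmod t n) := by
      ring
    rw [e]
    exact dvd_sub h (h1.mul_right _)
  · have h1 : Int.bmod t n < ((n : ℤ) + 1) / 2 := Int.bmod_lt hn
    have h2 : -((n : ℤ) / 2) ≤ Int.bmod t n := Int.le_bmod hn
    rcases abs_cases (Int.bmod t n) with h3 | h3 <;> omega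

/-- squarefree part -/
theorem exists_squarefree_part {b : ℤ} (hb : b ≠ 0) :
    ∃ c d : ℤ, c ≠ 0 ∧ Squarefree d ∧ b = d * c ^ 2 := by
  obtain ⟨m, k, h1, h2⟩ := Nat.sq_mul_squarefree b.natAbs
  have hk0 : k ≠ 0 := by
    rintro rfl
    simp at h1
    exact hb (Int.natAbs_eq_zero.mp (by omega))
  rcases Int.natAbs_eq b with hb' | hb'
  · refine ⟨k, m, by exact_mod_cast hk0, ?_, ?_⟩
    · rwa [Int.squarefree_natCast]
    · rw [hb', ← h1]; push_cast; ring
  · refine ⟨k, -m, by exact_mod_cast hk0, ?_, ?_⟩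
    · rw [← Int.squarefree_natAbs]; simpa using h2
    · rw [hb', ← h1]; push_cast; ring

theorem legendre_aux : ∀ n : ℕ, ∀ a b : ℤ, a.natAbs + b.natAbs ≤ n → Squarefree a →
    Squarefree b → (0 < a ∨ 0 < b) → (∀ p : ℕ, p.Prime → p ≠ 2 → hs p a b = 1) → Sol a b := by
  intro n
  induction n using Nat.strong_induction_on with
  | _ n ih =>
  have main : ∀ a b : ℤ, a.natAbs ≤ b.natAbs → a.natAbs + b.natAbs ≤ n → Squarefree a →
    Squarefree b → (0 < a ∨ 0 < b) → (∀ p : ℕ, p.Prime → p ≠ 2 → hs p a b = 1) → Sol a b := by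
    intro a b hab hn ha hb hsg h
    have ha0 : a ≠ 0 := ha.ne_zero
    have hb0 : b ≠ 0 := hb.ne_zero
    have hapos : 0 < a.natAbs := Int.natAbs_pos.mpr ha0
    by_cases hb1 : b.natAbs = 1
    · have ha1 : a.natAbs = 1 := by omega
      rcases hsg with h' | h'
      · have : a = 1 ^ 2 := by omega
        rw [this]; exact Sol.of_square
      · have : b = 1 ^ 2 := by omega
        rw [this]; exact Sol.of_square.symm
    have hb2 : 2 ≤ b.natAbs := by
      have : 0 < b.natAbs := Int.natAbs_pos.mpr hb0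
      omega
    obtain ⟨t0, ht0⟩ : ∃ t : ℤ, ((b.natAbs : ℕ) : ℤ) ∣ t ^ 2 - a := by
      apply exists_sq_mod_squarefree _ (Int.squarefree_natAbs.mpr hb)
      intro p hp hpb
      apply exists_sq_mod hp
      intro hp2 hpa
      have h1 := h p hp hp2
      rw [hs_of_not_dvd_left hp hpa] at h1
      have hpb' : (p : ℤ) ∣ b := Int.natCast_dvd.mpr hpb
      obtain ⟨c, hc⟩ := hpb'
      have hpc : ¬ (p : ℤ) ∣ c := by
        rintro ⟨d, hd⟩
        have := hb p ⟨d, by rw [hc, hd]; ring⟩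
        exact (Nat.prime_iff_prime_int.mp hp).not_unit this
      rw [(ex_of_sq_not_dvd hp (a := b) (c := c) (by rw [hc]; ring) hpc).1, pow_one] at h1
      exact h1
    obtain ⟨t, ht, hts⟩ := exists_small (by omega) ht0
    obtain ⟨b', hb'⟩ : b ∣ t ^ 2 - a := Int.natAbs_dvd.mp ht
    by_cases hb'0 : b' = 0
    · have : a = t ^ 2 := by rw [hb'0] at hb'; linarith
      rw [this]; exact Sol.of_square
    obtain ⟨c, d, hc, hd, hbd⟩ := exists_squarefree_part hb'0
    apply Sol.step hb'0 hb'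
    rw [hbd]
    apply Sol.of_sq hc
    have hd0 : d ≠ 0 := hd.ne_zero
    have hlt : b'.natAbs < b.natAbs := by
      zify
      have h1 : |b| * |b'| = |t ^ 2 - a| := by rw [hb', abs_mul]
      have h2 : |t ^ 2 - a| ≤ t ^ 2 + |a| := by
        calc |t ^ 2 - a| ≤ |t ^ 2| + |a| := abs_sub _ _
          _ = t ^ 2 + |a| := by rw [abs_of_nonneg (sq_nonneg t)]
      have h3 : |a| ≤ |b| := by
        rw [Int.abs_eq_natAbs, Int.abs_eq_natAbs]; exact_mod_cast hab
      have h4 : 2 * |t| ≤ |b| := by rw [Int.abs_eq_natAbs b]; exact hts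
      have h5 : t ^ 2 = |t| ^ 2 := (sq_abs t).symm
      have h6 : (2 : ℤ) ≤ |b| := by rw [Int.abs_eq_natAbs]; exact_mod_cast hb2
      by_contra hcon
      push Not at hcon
      have h7 : |b| * |b| ≤ |b| * |b'| := by nlinarith
      have h8 : 0 ≤ |t| := abs_nonneg t
      nlinarith
    have hdle : d.natAbs ≤ b'.natAbs := by
      rw [hbd, Int.natAbs_mul]
      have : 0 < (c ^ 2).natAbs := Int.natAbs_pos.mpr (pow_ne_zero _ hc)
      exact Nat.le_mul_of_pos_right _ this
    apply ih (a.natAbs + d.natAbs) (by omega) a d le_rfl ha hd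
    · rcases hsg with h' | h'
      · exact Or.inl h'
      · by_cases ha' : 0 < a
        · exact Or.inl ha'
        · right
          have h1 : 0 < b * b' := by
            rw [← hb']
            have : a < 0 := lt_of_le_of_ne (not_lt.mp ha') ha0
            nlinarith [sq_nonneg t]
          have h2 : 0 < b' := (pos_iff_pos_of_mul_pos h1).mp h'
          rw [hbd] at h2
          exact pos_of_mul_pos_left h2 (sq_nonneg c)
    · intro p hp hp2
      have e1 : hs p a (t ^ 2 - a) = 1 := hs_norm hp ha (by rw [hb']; exact mul_ne_zero hb0 hb'0)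
      rw [hb', hs_mul_right hp hb0 hb'0, h p hp hp2, one_mul, hbd, hs_sq_right hp ha0 hd0 hc] at e1
      exact e1
  intro a b hn ha hb hsg h
  rcases le_total a.natAbs b.natAbs with hab | hab
  · exact main a b hab hn ha hb hsg h
  · exact (main b a hab (by omega) hb ha hsg.symm (fun p hp hp2 => by
      rw [hs_comm]; exact h p hp hp2)).symm

/-- Legendre's theorem, no condition at `2`. -/
theorem legendre (a b : ℤ) (ha : a ≠ 0) (hb : b ≠ 0) (hsg : 0 < a ∨ 0 < b)
    (h : ∀ p : ℕ, p.Prime → p ≠ 2 → hs p a b = 1) :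
    ∃ x y z : ℤ, (x ≠ 0 ∨ y ≠ 0 ∨ z ≠ 0) ∧ a * x ^ 2 + b * y ^ 2 = z ^ 2 := by
  obtain ⟨c, d, hc, hd, rfl⟩ := exists_squarefree_part ha
  obtain ⟨c', d', hc', hd', rfl⟩ := exists_squarefree_part hb
  have hd0 : d ≠ 0 := hd.ne_zero
  have hd0' : d' ≠ 0 := hd'.ne_zero
  have h1 : Sol d d' := by
    apply legendre_aux _ d d' le_rfl hd hd'
    · rcases hsg with h' | h'
      · exact Or.inl (pos_of_mul_pos_left h' (sq_nonneg _))
      · exact Or.inr (pos_of_mul_pos_left h' (sq_nonneg _))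
    · intro p hp hp2
      have := h p hp hp2
      rwa [hs_sq_left hp hd0 hb hc, hs_sq_right hp hd0 hd0' hc'] at this
  exact ((h1.of_sq hc').symm.of_sq hc).symm

end Vale.Agent.P290.H227
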