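import Vale.Agent.P290.H227.Sym

/-!
The symbols at `2` and at infinity, and the product formula (quadratic reciprocity).
-/

namespace Vale.Agent.P290.H227

open scoped NumberTheorySymbols

/-- symbol at infinity -/
def hinf (a b : ℤ) : ℤ := if a < 0 ∧ b < 0 then -1 else 1

/-- character modulo 4 on integers -/
def c4 (u : ℤ) : ℤ := ZMod.χ₄ u

/-- character modulo 8 on integers -/
def c8 (u : ℤ) : ℤ := ZMod.χ₈ u

theorem c4_mul (u v : ℤ) : c4 (u * v) = c4 u * c4 v := by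
  unfold c4; push_cast; exact map_mul _ _ _

theorem c8_mul (u v : ℤ) : c8 (u * v) = c8 u * c8 v := by
  unfold c8; push_cast; exact map_mul _ _ _

theorem c4_nat (n : ℕ) : ZMod.χ₄ (n : ZMod 4) = c4 n := by
  unfold c4; push_cast; rfl

theorem c8_nat (n : ℕ) : ZMod.χ₈ (n : ZMod 8) = c8 n := by
  unfold c8; push_cast; rfl

theorem c4_neg_one : c4 (-1) = -1 := by unfold c4; decide

theorem c8_neg_one : c8 (-1) = 1 := by unfold c8; decide

theorem c4_one : c4 1 = 1 := by unfold c4; decide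

theorem c8_one : c8 1 = 1 := by unfold c8; decide

/-- the sign `(-1)^(eps u * eps v)` for odd `u`, `v` -/
def e4 (u v : ℤ) : ℤ := if c4 u = -1 ∧ c4 v = -1 then -1 else 1

/-- symbol at two -/
def h2 (a b : ℤ) : ℤ :=
  e4 (un 2 a) (un 2 b) * c8 (un 2 a) ^ ex 2 b * c8 (un 2 b) ^ ex 2 a

theorem hinf_comm (a b : ℤ) : hinf a b = hinf b a := by
  unfold hinf; simp only [and_comm]

theorem e4_comm (a b : ℤ) : e4 a b = e4 b a := by
  unfold e4; simp only [and_comm]

theorem h2_comm (a b : ℤ) : h2 a b = h2 b a := by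
  unfold h2; rw [e4_comm]; ring

theorem hinf_mul_left {a a' b : ℤ} (ha : a ≠ 0) (ha' : a' ≠ 0) :
    hinf (a * a') b = hinf a b * hinf a' b := by
  unfold hinf
  rcases lt_or_gt_of_ne ha with h | h <;> rcases lt_or_gt_of_ne ha' with h' | h'
  · have := (mul_pos_of_neg_of_neg h h').not_gt
    by_cases hb : b < 0 <;> simp [h, h', hb, this]
  · have := mul_neg_of_neg_of_pos h h'
    by_cases hb : b < 0 <;> simp [h, h'.not_gt, hb, this]
  · have := mul_neg_of_pos_of_neg h h'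
    by_cases hb : b < 0 <;> simp [h.not_gt, h', hb, this]
  · have := (mul_pos h h').not_gt
    by_cases hb : b < 0 <;> simp [h.not_gt, h'.not_gt, hb, this]

theorem chi4_cases {u : ℤ} (hu : ¬ (2 : ℤ) ∣ u) : c4 u = 1 ∨ c4 u = -1 := by
  unfold c4
  have h : u % 4 = 1 ∨ u % 4 = 3 := by omega
  rcases h with h | h
  · exact Or.inl (ZMod.χ₄_int_one_mod_four h)
  · exact Or.inr (ZMod.χ₄_int_three_mod_four h)

theorem chi8_cases {u : ℤ} (hu : ¬ (2 : ℤ) ∣ u) : c8 u = 1 ∨ c8 u = -1 := by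
  unfold c8
  have h : u % 2 ≠ 0 := by omega
  rw [ZMod.χ₈_int_eq_if_mod_eight, if_neg h]
  split_ifs
  · exact Or.inl rfl
  · exact Or.inr rfl

theorem e4_mul_left {u u' v : ℤ} (hu : ¬ (2 : ℤ) ∣ u) (hu' : ¬ (2 : ℤ) ∣ u') :
    e4 (u * u') v = e4 u v * e4 u' v := by
  unfold e4
  rw [c4_mul]
  rcases chi4_cases hu with h | h <;> rcases chi4_cases hu' with h' | h' <;>
    by_cases hv : c4 v = -1 <;> simp [h, h', hv]

theorem h2_mul_left {a a' b : ℤ} (ha : a ≠ 0) (ha' : a' ≠ 0) :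
    h2 (a * a') b = h2 a b * h2 a' b := by
  unfold h2
  rw [ex_mul Nat.prime_two ha ha', un_mul Nat.prime_two ha ha',
    e4_mul_left (by exact_mod_cast not_dvd_un Nat.prime_two ha)
      (by exact_mod_cast not_dvd_un Nat.prime_two ha'), c8_mul]
  ring

/-- the full product over infinity, two and a finite set of odd primes -/
def FF (S : Finset ℕ) (a b : ℤ) : ℤ := hinf a b * h2 a b * ∏ p ∈ S, hs p a b

theorem FF_comm (S : Finset ℕ) (a b : ℤ) : FF S a b = FF S b a := by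
  unfold FF
  rw [hinf_comm, h2_comm, Finset.prod_congr rfl (fun p _ => hs_comm p a b)]

theorem FF_mul_left {S : Finset ℕ} (hS : ∀ p ∈ S, p.Prime ∧ p ≠ 2) {a a' b : ℤ} (ha : a ≠ 0)
    (ha' : a' ≠ 0) : FF S (a * a') b = FF S a b * FF S a' b := by
  unfold FF
  rw [hinf_mul_left ha ha', h2_mul_left ha ha',
    Finset.prod_congr rfl (fun p hp => hs_mul_left (hS p hp).1 (b := b) ha ha'),
    Finset.prod_mul_distrib]
  ring

theorem FF_mul_right {S : Finset ℕ} (hS : ∀ p ∈ S, p.Prime ∧ p ≠ 2) {a b b' : ℤ} (hb : b ≠ 0)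
    (hb' : b' ≠ 0) : FF S a (b * b') = FF S a b * FF S a b' := by
  rw [FF_comm, FF_mul_left hS hb hb', FF_comm, FF_comm S b']

/-- multiplicative functions trivial on the generators -/
theorem mult_ext {S : Finset ℕ} (f : ℤ → ℤ) (hf : ∀ x y, x ≠ 0 → y ≠ 0 → f (x * y) = f x * f y)
    (h1 : f (-1) = 1) (h2 : f 2 = 1) (hp : ∀ p ∈ S, f (p : ℤ) = 1) (a : ℤ) (ha : a ≠ 0)
    (haS : ∀ p : ℕ, p.Prime → p ≠ 2 → (p : ℤ) ∣ a → p ∈ S) : f a = 1 := by
  have hone : f 1 = 1 := by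
    have := hf (-1) (-1) (by norm_num) (by norm_num)
    simpa [h1] using this
  have key : ∀ n : ℕ, n ≠ 0 → (∀ p : ℕ, p.Prime → p ≠ 2 → p ∣ n → p ∈ S) → f (n : ℤ) = 1 := by
    intro n
    induction n using Nat.recOnMul with
    | zero => intro h; exact absurd rfl h
    | one => intro _ _; simpa using hone
    | prime p hpp =>
      intro _ h
      by_cases hp2 : p = 2
      · subst hp2; exact_mod_cast h2
      · exact hp p (h p hpp hp2 dvd_rfl)
    | mul m n ihm ihn =>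
      intro h0 h
      have hm : m ≠ 0 := left_ne_zero_of_mul h0
      have hn : n ≠ 0 := right_ne_zero_of_mul h0
      push_cast
      rw [hf _ _ (by exact_mod_cast hm) (by exact_mod_cast hn),
        ihm hm (fun p hp hp2 hd => h p hp hp2 (hd.mul_right _)),
        ihn hn (fun p hp hp2 hd => h p hp hp2 (hd.mul_left _)), one_mul]
  have h3 := key a.natAbs (Int.natAbs_ne_zero.mpr ha)
    (fun p hp hp2 hd => haS p hp hp2 (Int.natCast_dvd.mpr hd))
  rcases Int.natAbs_eq a with h | h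
  · rw [h]; exact h3
  · rw [h, show -((a.natAbs : ℕ) : ℤ) = (-1) * (a.natAbs : ℤ) by ring,
      hf _ _ (by norm_num) (by exact_mod_cast Int.natAbs_ne_zero.mpr ha), h1, h3, one_mul]

theorem ex2_of_odd {a : ℤ} (h : ¬ (2 : ℤ) ∣ a) : ex 2 a = 0 ∧ un 2 a = a :=
  ex_of_not_dvd Nat.prime_two (by exact_mod_cast h)

theorem ex2_two : ex 2 2 = 1 ∧ un 2 2 = 1 :=
  ex_of_sq_not_dvd Nat.prime_two (by norm_num) (by norm_num)

theorem odd_prime_not_dvd {p : ℕ} (hp : p.Prime) (hp2 : p ≠ 2) : ¬ (2 : ℤ) ∣ (p : ℤ) := by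
  intro h
  have h1 : 2 ∣ p := by exact_mod_cast h
  exact hp2 ((Nat.prime_dvd_prime_iff_eq Nat.prime_two hp).mp h1).symm

theorem odd_prime_not_dvd_two {p : ℕ} (hp : p.Prime) (hp2 : p ≠ 2) : ¬ (p : ℤ) ∣ 2 := by
  intro h
  have h1 : p ∣ 2 := by exact_mod_cast h
  exact hp2 ((Nat.prime_dvd_prime_iff_eq hp Nat.prime_two).mp h1)

theorem odd_prime_odd {p : ℕ} (hp : p.Prime) (hp2 : p ≠ 2) : Odd p := hp.odd_of_ne_two hp2

theorem hs_at_prime {p : ℕ} (hp : p.Prime) {a : ℤ} (ha : ¬ (p : ℤ) ∣ a) :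
    hs p a p = J(a | p) := by
  rw [hs_of_not_dvd_left hp ha, (ex_of_sq_not_dvd hp (a := (p : ℤ)) (c := 1) (by ring)
    (Nat.prime_iff_prime_int.mp hp).not_dvd_one).1, pow_one]

theorem prime_not_dvd_prime {p q : ℕ} (hp : p.Prime) (hq : q.Prime) (h : q ≠ p) :
    ¬ (q : ℤ) ∣ (p : ℤ) := by
  intro h1
  have h2 : q ∣ p := by exact_mod_cast h1
  exact h ((Nat.prime_dvd_prime_iff_eq hq hp).mp h2)

/-- product over `S` of the symbols of a unit and a prime -/
theorem prod_unit_prime {S : Finset ℕ} (hS : ∀ p ∈ S, p.Prime ∧ p ≠ 2) {p : ℕ} (hpS : p ∈ S)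
    {a : ℤ} (ha : ∀ q ∈ S, ¬ (q : ℤ) ∣ a) : ∏ q ∈ S, hs q a p = J(a | p) := by
  rw [Finset.prod_eq_single_of_mem p hpS]
  · exact hs_at_prime (hS p hpS).1 (ha p hpS)
  · intro q hq hqp
    exact hs_of_not_dvd (hS q hq).1 (ha q hq)
      (prime_not_dvd_prime (hS p hpS).1 (hS q hq).1 hqp)

theorem prod_unit_unit {S : Finset ℕ} (hS : ∀ p ∈ S, p.Prime ∧ p ≠ 2)
    {a b : ℤ} (ha : ∀ q ∈ S, ¬ (q : ℤ) ∣ a) (hb : ∀ q ∈ S, ¬ (q : ℤ) ∣ b) :
    ∏ q ∈ S, hs q a b = 1 :=
  Finset.prod_eq_one fun q hq => hs_of_not_dvd (hS q hq).1 (ha q hq) (hb q hq)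

theorem h2_odd {a b : ℤ} (ha : ¬ (2 : ℤ) ∣ a) (hb : ¬ (2 : ℤ) ∣ b) : h2 a b = e4 a b := by
  unfold h2
  rw [(ex2_of_odd ha).1, (ex2_of_odd ha).2, (ex2_of_odd hb).1, (ex2_of_odd hb).2]
  simp

theorem h2_two_odd {b : ℤ} (hb : ¬ (2 : ℤ) ∣ b) : h2 2 b = c8 b := by
  unfold h2
  rw [ex2_two.1, ex2_two.2, (ex2_of_odd hb).1, (ex2_of_odd hb).2]
  simp [e4, c4_one, c8_one]

theorem prod_formula {a b : ℤ} (ha : a ≠ 0) (hb : b ≠ 0) (S : Finset ℕ)
    (hS : ∀ p ∈ S, p.Prime ∧ p ≠ 2)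
    (haS : ∀ p : ℕ, p.Prime → p ≠ 2 → (p : ℤ) ∣ a → p ∈ S)
    (hbS : ∀ p : ℕ, p.Prime → p ≠ 2 → (p : ℤ) ∣ b → p ∈ S) :
    hinf a b * h2 a b * ∏ p ∈ S, hs p a b = 1 := by
  have u1 : ∀ q ∈ S, ¬ (q : ℤ) ∣ (-1) := fun q hq => not_dvd_neg_one (hS q hq).1
  have u2 : ∀ q ∈ S, ¬ (q : ℤ) ∣ 2 := fun q hq => odd_prime_not_dvd_two (hS q hq).1 (hS q hq).2
  have g11 : FF S (-1) (-1) = 1 := by
    unfold FF
    rw [prod_unit_unit hS u1 u1, h2_odd (by norm_num) (by norm_num)]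
    simp [hinf, e4, c4_neg_one]
  have g12 : FF S 2 (-1) = 1 := by
    unfold FF
    rw [prod_unit_unit hS u2 u1, h2_two_odd (by norm_num)]
    simp [hinf, c8_neg_one]
  have g22 : FF S 2 2 = 1 := by
    unfold FF
    rw [prod_unit_unit hS u2 u2]
    unfold h2
    rw [ex2_two.1, ex2_two.2]
    simp [hinf, e4, c4_one, c8_one]
  have g1p : ∀ p ∈ S, FF S (-1) p = 1 := by
    intro p hp
    have hpp := (hS p hp).1
    have hp2 := (hS p hp).2
    unfold FF
    rw [prod_unit_prime hS hp u1, h2_odd (by norm_num) (odd_prime_not_dvd hpp hp2),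
      jacobiSym.at_neg_one (odd_prime_odd hpp hp2), c4_nat]
    have h4 : hinf (-1) p = 1 := by simp [hinf]
    rw [h4]
    rcases chi4_cases (odd_prime_not_dvd hpp hp2) with h | h <;> unfold e4 <;>
      simp [h, c4_neg_one]
  have g2p : ∀ p ∈ S, FF S 2 p = 1 := by
    intro p hp
    have hpp := (hS p hp).1
    have hp2 := (hS p hp).2
    unfold FF
    rw [prod_unit_prime hS hp u2, h2_two_odd (odd_prime_not_dvd hpp hp2),
      jacobiSym.at_two (odd_prime_odd hpp hp2), c8_nat]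
    have h4 : hinf 2 p = 1 := by simp [hinf]
    rw [h4]
    rcases chi8_cases (odd_prime_not_dvd hpp hp2) with h | h <;> simp [h]
  have gpp : ∀ p ∈ S, FF S p p = 1 := by
    intro p hp
    have hpp := (hS p hp).1
    have hp2 := (hS p hp).2
    have e : ex p p = 1 ∧ un p p = 1 := ex_of_sq_not_dvd hpp (by ring)
      (Nat.prime_iff_prime_int.mp hpp).not_dvd_one
    unfold FF
    rw [Finset.prod_eq_single_of_mem p hp (fun q hq hqp => hs_of_not_dvd (hS q hq).1
      (prime_not_dvd_prime hpp (hS q hq).1 hqp) (prime_not_dvd_prime hpp (hS q hq).1 hqp)),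
      h2_odd (odd_prime_not_dvd hpp hp2) (odd_prime_not_dvd hpp hp2)]
    have h5 : hs p p p = J(-1 | p) := by
      unfold hs; rw [e.1, e.2]; simp
    rw [h5, jacobiSym.at_neg_one (odd_prime_odd hpp hp2), c4_nat]
    have h4 : hinf p p = 1 := by simp [hinf]
    rw [h4]
    rcases chi4_cases (odd_prime_not_dvd hpp hp2) with h | h <;> unfold e4 <;> simp [h]
  have gpq : ∀ p ∈ S, ∀ q ∈ S, FF S p q = 1 := by
    intro p hp q hq
    by_cases hpq : p = q
    · subst hpq; exact gpp p hp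
    have hpp := (hS p hp).1
    have hp2 := (hS p hp).2
    have hqq := (hS q hq).1
    have hq2 := (hS q hq).2
    unfold FF
    have hprod : ∏ r ∈ S, hs r (p : ℤ) q = J(q | p) * J(p | q) := by
      rw [← Finset.mul_prod_erase S _ hp, ← Finset.mul_prod_erase (S.erase p) _
        (Finset.mem_erase.mpr ⟨fun h => hpq h.symm, hq⟩), Finset.prod_eq_one]
      · rw [hs_comm p, hs_at_prime hpp (prime_not_dvd_prime hqq hpp hpq),
          hs_at_prime hqq (prime_not_dvd_prime hpp hqq (fun h => hpq h.symm)), mul_one]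
      · intro r hr
        rw [Finset.mem_erase, Finset.mem_erase] at hr
        exact hs_of_not_dvd (hS r hr.2.2).1 (prime_not_dvd_prime hpp (hS r hr.2.2).1 hr.2.1)
          (prime_not_dvd_prime hqq (hS r hr.2.2).1 hr.1)
    rw [hprod, h2_odd (odd_prime_not_dvd hpp hp2) (odd_prime_not_dvd hqq hq2)]
    have h4 : hinf p q = 1 := by simp [hinf]
    rw [h4]
    have ho : p % 4 = 1 ∨ p % 4 = 3 := Nat.odd_mod_four_iff.mp
      (Nat.odd_iff.mp (odd_prime_odd hpp hp2))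
    have ho' : q % 4 = 1 ∨ q % 4 = 3 := Nat.odd_mod_four_iff.mp
      (Nat.odd_iff.mp (odd_prime_odd hqq hq2))
    have hsq1 : J(p | q) * J(p | q) = 1 := by
      rw [← sq]; exact jac_sq hqq (prime_not_dvd_prime hpp hqq (fun h => hpq h.symm))
    have hsq2 : J(q | p) * J(q | p) = 1 := by
      rw [← sq]; exact jac_sq hpp (prime_not_dvd_prime hqq hpp hpq)
    rcases ho with ho | ho
    · have c1 : c4 p = 1 := by
        rw [← c4_nat]; exact ZMod.χ₄_nat_one_mod_four ho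
      have : e4 p q = 1 := by unfold e4; rw [c1]; simp
      rw [this, jacobiSym.quadratic_reciprocity_one_mod_four ho (odd_prime_odd hqq hq2)]
      simpa using hsq2
    · rcases ho' with ho' | ho'
      · have c1 : c4 q = 1 := by
          rw [← c4_nat]; exact ZMod.χ₄_nat_one_mod_four ho'
        have : e4 p q = 1 := by unfold e4; rw [c1]; simp
        rw [this, jacobiSym.quadratic_reciprocity_one_mod_four ho' (odd_prime_odd hpp hp2)]
        simpa using hsq1
      · have c1 : c4 q = -1 := by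
          rw [← c4_nat]; exact ZMod.χ₄_nat_three_mod_four ho'
        have c2 : c4 p = -1 := by
          rw [← c4_nat]; exact ZMod.χ₄_nat_three_mod_four ho
        have : e4 p q = -1 := by unfold e4; rw [c1, c2]; simp
        rw [this, jacobiSym.quadratic_reciprocity_three_mod_four ho ho']
        linarith
  -- assemble
  have step : ∀ x : ℤ, x ≠ 0 → FF S x (-1) = 1 → FF S x 2 = 1 → (∀ p ∈ S, FF S x p = 1) →
      FF S x b = 1 := by
    intro x _ h1 h2 h3
    exact mult_ext (FF S x) (fun y z hy hz => FF_mul_right hS hy hz) h1 h2 h3 b hb hbS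
  have final : FF S a b = 1 := by
    refine mult_ext (fun x => FF S x b) (fun y z hy hz => FF_mul_left hS hy hz) ?_ ?_ ?_ a ha haS
    · exact step (-1) (by norm_num) g11 (by rw [FF_comm]; exact g12) g1p
    · exact step 2 (by norm_num) g12 g22 g2p
    · intro p hp
      refine step p ?_ (by rw [FF_comm]; exact g1p p hp) (by rw [FF_comm]; exact g2p p hp)
        (gpq p hp)
      exact_mod_cast (hS p hp).1.ne_zero
  exact final

end Vale.Agent.P290.H227
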