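import Mathlib

/-!
Tame symbols of two nonzero integers at an odd prime, explicit form.
-/

namespace Vale.Agent.P290.H227

open scoped NumberTheorySymbols

/-- exponent of `p` in `a` -/
def ex (p : ℕ) (a : ℤ) : ℕ := padicValInt p a

/-- part of `a` prime to `p` -/
def un (p : ℕ) (a : ℤ) : ℤ := a / (p : ℤ) ^ ex p a

theorem pow_ex_dvd (p : ℕ) (a : ℤ) : (p : ℤ) ^ ex p a ∣ a := by
  unfold ex
  exact padicValInt_dvd a

theorem un_mul_pow (p : ℕ) (a : ℤ) : un p a * (p : ℤ) ^ ex p a = a :=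
  Int.ediv_mul_cancel (pow_ex_dvd p a)

theorem ex_unique {p : ℕ} (hp : p.Prime) {a u : ℤ} {e : ℕ} (hu : ¬ (p : ℤ) ∣ u)
    (h : a = u * (p : ℤ) ^ e) : ex p a = e ∧ un p a = u := by
  have hp0 : (p : ℤ) ≠ 0 := by exact_mod_cast hp.ne_zero
  have hu0 : u ≠ 0 := by rintro rfl; exact hu (dvd_zero _)
  have : Fact p.Prime := ⟨hp⟩
  have h1 : ex p a = e := by
    unfold ex
    rw [h, padicValInt.mul hu0 (pow_ne_zero _ hp0), padicValInt.eq_zero_of_not_dvd hu]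
    rw [zero_add]
    have : ((p : ℤ) ^ e) = ((p ^ e : ℕ) : ℤ) := by push_cast; rfl
    rw [this, padicValInt.of_nat]
    exact padicValNat.prime_pow e
  refine ⟨h1, ?_⟩
  unfold un
  rw [h1, h]
  exact Int.mul_ediv_cancel _ (pow_ne_zero _ hp0)

theorem not_dvd_un {p : ℕ} (hp : p.Prime) {a : ℤ} (ha : a ≠ 0) : ¬ (p : ℤ) ∣ un p a := by
  have : Fact p.Prime := ⟨hp⟩
  intro h
  obtain ⟨c, hc⟩ := h
  have h2 : (p : ℤ) ^ (ex p a + 1) ∣ a := by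
    refine ⟨c, ?_⟩
    conv_lhs => rw [← un_mul_pow p a, hc]
    ring
  unfold ex at h2
  rw [padicValInt_dvd_iff] at h2
  rcases h2 with h2 | h2
  · exact ha h2
  · omega

theorem un_ne_zero {p : ℕ} (hp : p.Prime) {a : ℤ} (ha : a ≠ 0) : un p a ≠ 0 := by
  intro h
  exact not_dvd_un hp ha (h ▸ dvd_zero _)

theorem ex_un_mul {p : ℕ} (hp : p.Prime) {a b : ℤ} (ha : a ≠ 0) (hb : b ≠ 0) :
    ex p (a * b) = ex p a + ex p b ∧ un p (a * b) = un p a * un p b := by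
  refine ex_unique hp ?_ ?_
  · intro h
    rcases (Nat.prime_iff_prime_int.mp hp).dvd_or_dvd h with h | h
    · exact not_dvd_un hp ha h
    · exact not_dvd_un hp hb h
  · conv_lhs => rw [← un_mul_pow p a, ← un_mul_pow p b]
    ring

theorem ex_mul {p : ℕ} (hp : p.Prime) {a b : ℤ} (ha : a ≠ 0) (hb : b ≠ 0) :
    ex p (a * b) = ex p a + ex p b := (ex_un_mul hp ha hb).1

theorem un_mul {p : ℕ} (hp : p.Prime) {a b : ℤ} (ha : a ≠ 0) (hb : b ≠ 0) :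
    un p (a * b) = un p a * un p b := (ex_un_mul hp ha hb).2

theorem ex_un_neg {p : ℕ} (hp : p.Prime) {a : ℤ} (ha : a ≠ 0) :
    ex p (-a) = ex p a ∧ un p (-a) = - un p a := by
  refine ex_unique hp ?_ ?_
  · intro h
    exact not_dvd_un hp ha (by simpa using h)
  · conv_lhs => rw [← un_mul_pow p a]
    ring

theorem ex_of_not_dvd {p : ℕ} (hp : p.Prime) {a : ℤ} (h : ¬ (p : ℤ) ∣ a) :
    ex p a = 0 ∧ un p a = a := ex_unique hp h (by simp)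

theorem ex_of_sq_not_dvd {p : ℕ} (hp : p.Prime) {a c : ℤ} (h : a = c * p) (hc : ¬ (p : ℤ) ∣ c) :
    ex p a = 1 ∧ un p a = c := ex_unique hp hc (by rw [h, pow_one])

/-- the symbol at an odd prime -/
def hs (p : ℕ) (a b : ℤ) : ℤ :=
  J(-1 | p) ^ (ex p a * ex p b) * J(un p a | p) ^ ex p b * J(un p b | p) ^ ex p a

theorem hs_comm (p : ℕ) (a b : ℤ) : hs p a b = hs p b a := by
  unfold hs
  rw [mul_comm (ex p a) (ex p b)]
  ring

theorem jac_sq {p : ℕ} (hp : p.Prime) {u : ℤ} (hu : ¬ (p : ℤ) ∣ u) : J(u | p) ^ 2 = 1 := by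
  apply jacobiSym.sq_one
  rw [Int.gcd_comm]
  have : IsCoprime (p : ℤ) u := (Nat.prime_iff_prime_int.mp hp).coprime_iff_not_dvd.mpr hu
  exact Int.isCoprime_iff_gcd_eq_one.mp this

theorem not_dvd_neg_one {p : ℕ} (hp : p.Prime) : ¬ (p : ℤ) ∣ (-1) := by
  intro h
  have h1 : (p : ℤ) ∣ 1 := by simpa using h
  exact (Nat.prime_iff_prime_int.mp hp).not_dvd_one h1

theorem jac_neg_one_sq {p : ℕ} (hp : p.Prime) : J(-1 | p) ^ 2 = 1 :=
  jac_sq hp (not_dvd_neg_one hp)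

theorem hs_mul_left {p : ℕ} (hp : p.Prime) {a a' b : ℤ} (ha : a ≠ 0) (ha' : a' ≠ 0) :
    hs p (a * a') b = hs p a b * hs p a' b := by
  unfold hs
  rw [ex_mul hp ha ha', un_mul hp ha ha', jacobiSym.mul_left]
  ring

theorem hs_mul_right {p : ℕ} (hp : p.Prime) {a b b' : ℤ} (hb : b ≠ 0) (hb' : b' ≠ 0) :
    hs p a (b * b') = hs p a b * hs p a b' := by
  rw [hs_comm, hs_mul_left hp hb hb', hs_comm p b, hs_comm p b']

theorem hs_sq {p : ℕ} (hp : p.Prime) {a b : ℤ} (ha : a ≠ 0) (hb : b ≠ 0) : hs p a b ^ 2 = 1 := by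
  unfold hs
  have h1 := jac_neg_one_sq hp
  have h2 := jac_sq hp (not_dvd_un hp ha)
  have h3 := jac_sq hp (not_dvd_un hp hb)
  have e : ∀ x y z : ℤ, ∀ k m n : ℕ, (x ^ k * y ^ m * z ^ n) ^ 2
      = (x ^ 2) ^ k * (y ^ 2) ^ m * (z ^ 2) ^ n := by intros; ring
  rw [e, h1, h2, h3]
  simp

theorem hs_mul_self {p : ℕ} (hp : p.Prime) {a b : ℤ} (ha : a ≠ 0) (hb : b ≠ 0) :
    hs p a b * hs p a b = 1 := by
  rw [← sq]; exact hs_sq hp ha hb

theorem hs_sq_right {p : ℕ} (hp : p.Prime) {a b c : ℤ} (ha : a ≠ 0) (hb : b ≠ 0) (hc : c ≠ 0) :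
    hs p a (b * c ^ 2) = hs p a b := by
  rw [hs_mul_right hp hb (pow_ne_zero _ hc), sq, hs_mul_right hp hc hc, hs_mul_self hp ha hc, mul_one]

theorem hs_sq_left {p : ℕ} (hp : p.Prime) {a b c : ℤ} (ha : a ≠ 0) (hb : b ≠ 0) (hc : c ≠ 0) :
    hs p (a * c ^ 2) b = hs p a b := by
  rw [hs_comm, hs_sq_right hp hb ha hc, hs_comm]

theorem hs_of_not_dvd {p : ℕ} (hp : p.Prime) {a b : ℤ} (ha : ¬ (p : ℤ) ∣ a)
    (hb : ¬ (p : ℤ) ∣ b) : hs p a b = 1 := by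
  unfold hs
  rw [(ex_of_not_dvd hp ha).1, (ex_of_not_dvd hp hb).1]
  simp

theorem hs_of_not_dvd_left {p : ℕ} (hp : p.Prime) {a b : ℤ} (ha : ¬ (p : ℤ) ∣ a) :
    hs p a b = J(a | p) ^ ex p b := by
  unfold hs
  rw [(ex_of_not_dvd hp ha).1, (ex_of_not_dvd hp ha).2]
  simp

theorem hs_neg_self {p : ℕ} (hp : p.Prime) {a : ℤ} (ha : a ≠ 0) : hs p a (-a) = 1 := by
  unfold hs
  rw [(ex_un_neg hp ha).1, (ex_un_neg hp ha).2]
  have h1 := jac_neg_one_sq hp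
  have h2 := jac_sq hp (not_dvd_un hp ha)
  rw [show -un p a = (-1) * un p a by ring, jacobiSym.mul_left, mul_pow]
  have e1 : J(-1 | p) ^ (ex p a * ex p a) * J(un p a | p) ^ ex p a *
      (J(-1 | p) ^ ex p a * J(un p a | p) ^ ex p a)
      = J(-1 | p) ^ (ex p a * (ex p a + 1)) * (J(un p a | p) ^ 2) ^ ex p a := by
    rw [mul_add, pow_add, mul_one, ← pow_mul, mul_comm 2, pow_mul]; ring
  rw [e1, h2, one_pow, mul_one]
  obtain ⟨k, hk⟩ := Nat.even_mul_succ_self (ex p a)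
  rw [hk, ← two_mul, pow_mul, h1, one_pow]

theorem jac_congr {p : ℕ} {a b : ℤ} (h : (p : ℤ) ∣ a - b) : J(a | p) = J(b | p) := by
  apply jacobiSym.mod_left'
  exact (Int.emod_emod_of_dvd _ dvd_rfl).symm.trans
    (by rw [Int.emod_emod_of_dvd _ dvd_rfl]; exact (Int.ModEq.symm (Int.modEq_iff_dvd.mpr h)))

end Vale.Agent.P290.H227
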